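import Vale.Agent.P347.Main

namespace Vale.Agent.Results.P347.Subpoly

open Vale.Agent.P347

theorem result :
    (∀ ε : ℝ, 0 < ε → ∀ᶠ d : ℕ in Filter.atTop, ∃ q : ℕ, (q : ℝ) ≤ (d : ℝ) ^ ε ∧ Suffices d q) ∧
      Filter.Tendsto (fun d : ℕ => Real.log (Q d) / Real.log d) Filter.atTop (nhds 0) ∧
      Filter.limsup (fun d : ℕ => Real.log (Q d) / Real.log d) Filter.atTop = 0 :=
  ⟨fun _ h => main_upper h, main_tendsto, main_tendsto.limsup_eq⟩

end Vale.Agent.Results.P347.Subpoly
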